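import Vale.Agent.P105.Alg

namespace Vale.Agent.Results.P105.Salem

open MeasureTheory
open scoped ENNReal

/-- A fair coin. -/
noncomputable def fairCoin : Measure Bool :=
  (1 / 2 : ℝ≥0∞) • Measure.dirac true + (1 / 2 : ℝ≥0∞) • Measure.dirac false

/-- The Bernoulli convolution: the law of `∑ ε n * l ^ n` for independent fair signs `ε n`. -/
noncomputable def bernoulli (l : ℝ) : Measure ℝ :=
  (Measure.infinitePi fun _ : ℕ => fairCoin).map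
    fun ω : ℕ → Bool => ∑' n, (if ω n then (1 : ℝ) else -1) * l ^ n

/-- Singular: full mass on a Borel set of Lebesgue measure zero. -/
def IsSingular (ν : Measure ℝ) : Prop :=
  ∃ A : Set ℝ, MeasurableSet A ∧ volume A = 0 ∧ ν A = 1

/-- Pisot numbers. -/
def IsPisot (β : ℝ) : Prop :=
  1 < β ∧ IsIntegral ℤ β ∧ ∀ z ∈ (minpoly ℚ β).aroots ℂ, z ≠ (β : ℂ) → ‖z‖ < 1

/-- Salem numbers. -/
def IsSalem (β : ℝ) : Prop :=
  1 < β ∧ IsIntegral ℤ β ∧ (∀ z ∈ (minpoly ℚ β).aroots ℂ, z ≠ (β : ℂ) → ‖z‖ ≤ 1) ∧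
    ∃ z ∈ (minpoly ℚ β).aroots ℂ, ‖z‖ = 1

theorem result :
    (∀ β : ℝ, IsSalem β → (minpoly ℚ β).natDegree = 4 → IsSingular (bernoulli β⁻¹)) ∧
    ∃ l : ℝ, 1 / 2 < l ∧ l < 1 ∧ l ^ 4 - l ^ 3 - l ^ 2 - l + 1 = 0 ∧
      ¬ IsPisot l⁻¹ ∧ IsSingular (bernoulli l) := by
  constructor
  · rintro β ⟨h1, hi, -, z, hz, hz1⟩ hd
    obtain ⟨a, b, h2, h3⟩ := Vale.Agent.P105.salem_eq h1 hi hd hz hz1
    exact Vale.Agent.P105.quartic h1 h2 h3
  · obtain ⟨β, h1, h2, h3⟩ := Vale.Agent.P105.exists_example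
    obtain ⟨h4, h5⟩ := Vale.Agent.P105.example_facts h1 h2 h3
    have h0 : β ≠ 0 := by linarith
    refine ⟨β⁻¹, ?_, Vale.Agent.P105.l_lt h1, ?_, fun h => h5 ?_, h4⟩
    · rw [one_div]
      exact (inv_lt_inv₀ (by norm_num) (by linarith)).mpr h2
    · field_simp
      linear_combination h3
    · rw [inv_inv] at h
      exact h.2.2

end Vale.Agent.Results.P105.Salem
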